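import Vale.Agent.Lib.P199.Elem

/-! P199 (Kurosh): elementary amenable groups of units. -/

namespace Vale.Agent.P199

/-- the smallest class of subgroups of `Γ` containing the trivial group and closed under
extensions with abelian quotient, extensions with finite quotient, and directed unions -/
inductive ElemAmenable {Γ : Type} [Group Γ] : Subgroup Γ → Prop
  | bot : ElemAmenable ⊥
  | abelian (N G : Subgroup Γ) : N ≤ G → (∀ a ∈ G, ∀ b ∈ G, a * b * a⁻¹ * b⁻¹ ∈ N) →
      ElemAmenable N → ElemAmenable G
  | finite (N G : Subgroup Γ) (T : Finset Γ) : N ≤ G → (∀ g ∈ G, ∀ n ∈ N, g * n * g⁻¹ ∈ N) →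
      (∀ t ∈ T, t ∈ G) → (∀ g ∈ G, ∃ n ∈ N, ∃ t ∈ T, g = n * t) →
      ElemAmenable N → ElemAmenable G
  | union (S : Set (Subgroup Γ)) : S.Nonempty → DirectedOn (· ≤ ·) S →
      (∀ H ∈ S, ElemAmenable H) → ElemAmenable (sSup S)

theorem locFin_elem {k A : Type} [Field k] [Ring A] [Algebra k A]
    (halg : ∀ x : A, IsAlgebraic k x) (G : Subgroup Aˣ) (hG : ElemAmenable G) : LocFin k G := by
  induction hG with
  | bot => exact locFin_bot
  | abelian N G h1 h2 _ ih => exact locFin_abelian halg N G h1 h2 ih
  | finite N G T h1 h2 h3 h4 _ ih => exact locFin_finite halg N G h1 h2 T h3 h4 ih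
  | union S h1 h2 _ ih => exact locFin_union S h1 h2 ih

/-- solvable groups are in the class -/
theorem elem_solvable {Γ : Type} [Group Γ] (G : Subgroup Γ) (hG : Group.IsSolvable G) :
    ElemAmenable G := by
  obtain ⟨n, hn⟩ := hG.solvable
  have h : ∀ m ≤ n, ElemAmenable ((derivedSeries G (n - m)).map G.subtype) := by
    intro m
    induction m with
    | zero =>
      intro _
      rw [Nat.sub_zero, hn, Subgroup.map_bot]
      exact ElemAmenable.bot
    | succ m ih =>
      intro hm
      have e : n - m = (n - (m + 1)) + 1 := by omega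
      refine ElemAmenable.abelian ((derivedSeries G (n - m)).map G.subtype) _ ?_ ?_
        (ih (by omega))
      · apply Subgroup.map_mono
        rw [e]
        exact derivedSeries_antitone G (Nat.le_succ _)
      · rintro _ ⟨a, ha, rfl⟩ _ ⟨b, hb, rfl⟩
        refine ⟨a * b * a⁻¹ * b⁻¹, ?_, by simp⟩
        rw [e, derivedSeries_succ]
        exact Subgroup.commutator_mem_commutator ha hb
  have h0 := h n le_rfl
  rw [Nat.sub_self, derivedSeries_zero] at h0
  have e : (⊤ : Subgroup G).map G.subtype = G := by
    rw [← MonoidHom.range_eq_map, Subgroup.range_subtype]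
  rwa [e] at h0

end Vale.Agent.P199
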