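import Vale.Agent.Lib.P199.Solv

/-! P199 (Kurosh): finite extensions and directed unions. -/

namespace Vale.Agent.P199

variable {k A : Type} [Field k] [Ring A] [Algebra k A]

/-- a finite set of algebra elements uses finitely many group elements -/
theorem finite_support (G : Set Aˣ) (F : Set A) (hF : F.Finite)
    (hsub : F ⊆ (Algebra.adjoin k (Units.val '' G) : Set A)) :
    ∃ T : Finset Aˣ, (T : Set Aˣ) ⊆ G ∧
      F ⊆ (Algebra.adjoin k (Units.val '' (T : Set Aˣ)) : Set A) := by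
  classical
  have hch : ∀ f : A, ∃ T : Finset Aˣ, (T : Set Aˣ) ⊆ G ∧
      (f ∈ F → f ∈ Algebra.adjoin k (Units.val '' (T : Set Aˣ))) := by
    intro f
    by_cases hf : f ∈ F
    · obtain ⟨T, h1, h2⟩ := mem_finite G f (hsub hf)
      exact ⟨T, h1, fun _ => h2⟩
    · exact ⟨∅, by simp, fun h => absurd h hf⟩
  choose T hT1 hT2 using hch
  refine ⟨hF.toFinset.biUnion T, ?_, ?_⟩
  · intro x hx
    rw [Finset.mem_coe, Finset.mem_biUnion] at hx
    obtain ⟨f, _, hfx⟩ := hx
    exact hT1 f hfx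
  · intro f hf
    refine Algebra.adjoin_mono (Set.image_mono ?_) (hT2 f hf)
    intro u hu
    exact Finset.mem_coe.2 (Finset.mem_biUnion.2 ⟨f, hF.mem_toFinset.2 hf, hu⟩)

/-- directed unions -/
theorem locFin_union (S : Set (Subgroup Aˣ)) (hne : S.Nonempty) (hdir : DirectedOn (· ≤ ·) S)
    (hS : ∀ H ∈ S, LocFin k H) : LocFin k (sSup S) := by
  classical
  intro F hF hsub
  obtain ⟨T, hT1, hT2⟩ := finite_support ((sSup S : Subgroup Aˣ) : Set Aˣ) F hF hsub
  have h : ∀ T : Finset Aˣ, (T : Set Aˣ) ⊆ (sSup S : Subgroup Aˣ) →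
      ∃ H ∈ S, (T : Set Aˣ) ⊆ H := by
    intro T
    induction T using Finset.induction_on with
    | empty => intro _; obtain ⟨H, hH⟩ := hne; exact ⟨H, hH, by simp⟩
    | insert g T _ ih =>
      intro hT
      rw [Finset.coe_insert] at hT
      obtain ⟨H, hH, hTH⟩ := ih ((Set.subset_insert _ _).trans hT)
      have hg : g ∈ sSup S := hT (Set.mem_insert _ _)
      rw [Subgroup.mem_sSup_of_directedOn hne hdir] at hg
      obtain ⟨H', hH', hg'⟩ := hg
      obtain ⟨K, hK, h1, h2⟩ := hdir H hH H' hH'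
      refine ⟨K, hK, ?_⟩
      rw [Finset.coe_insert]
      intro x hx
      rcases hx with rfl | hx
      · exact h2 hg'
      · exact h1 (hTH hx)
  obtain ⟨H, hH, hTH⟩ := h T hT1
  exact hS H hH F hF (fun f hf => Algebra.adjoin_mono (Set.image_mono hTH) (hT2 hf))

/-- finite extensions: `G` is covered by finitely many cosets of the normal subgroup `N` -/
theorem locFin_finite (halg : ∀ x : A, IsAlgebraic k x) (N G : Subgroup Aˣ) (hNG : N ≤ G)
    (hnorm : ∀ g ∈ G, ∀ n ∈ N, g * n * g⁻¹ ∈ N) (T : Finset Aˣ) (hTG : (T : Set Aˣ) ⊆ G)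
    (hT : ∀ g ∈ G, ∃ n ∈ N, ∃ t ∈ T, g = n * t) (hN : LocFin k N) : LocFin k G := by
  classical
  let R := Algebra.adjoin k (Units.val '' (N : Set Aˣ))
  -- cocycle
  have hco : ∀ g : Aˣ, ∃ n t : Aˣ, g ∈ G → n ∈ N ∧ t ∈ T ∧ g = n * t := by
    intro g
    by_cases hg : g ∈ G
    · obtain ⟨n, hn, t, ht, e⟩ := hT g hg
      exact ⟨n, t, fun _ => ⟨hn, ht, e⟩⟩
    · exact ⟨1, 1, fun h => absurd h hg⟩
  choose c r hcr using hco
  let ST : Submodule k A := Submodule.span k (Units.val '' (T : Set Aˣ))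
  have hSTfg : ST.FG := Submodule.fg_span (T.finite_toSet.image _)
  let P : Submodule k A := Subalgebra.toSubmodule R * ST
  have hPle : Subalgebra.toSubmodule (Algebra.adjoin k (Units.val '' (G : Set Aˣ))) ≤ P := by
    apply adjoin_le_of_stable
    · obtain ⟨h1, h2, h3⟩ := hcr 1 G.one_mem
      have h4 : (1 : A) = ((c 1 : Aˣ) : A) * ((r 1 : Aˣ) : A) := by
        rw [← Units.val_mul, ← h3, Units.val_one]
      rw [h4]
      exact Submodule.mul_mem_mul (show ((c 1 : Aˣ) : A) ∈ R from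
        Algebra.subset_adjoin ⟨_, h1, rfl⟩) (Submodule.subset_span ⟨_, h2, rfl⟩)
    · rintro s ⟨u, hu, rfl⟩ m hm
      have hcR : ∀ x ∈ R, (u : A) * x * (u⁻¹ : Aˣ) ∈ R := by
        apply conj_mem
        rintro x ⟨n, hn, rfl⟩
        exact Algebra.subset_adjoin ⟨u * n * u⁻¹, hnorm u hu n hn, by simp⟩
      induction hm using Submodule.mul_induction_on' with
      | mem_mul_mem x hx w hw =>
        induction hw using Submodule.span_induction with
        | mem w hw =>
          obtain ⟨t, ht, rfl⟩ := hw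
          obtain ⟨h1, h2, h3⟩ := hcr (u * t) (G.mul_mem hu (hTG ht))
          have e : (u : A) * (x * (t : A))
              = (u * x * (u⁻¹ : Aˣ)) * (c (u * t) : Aˣ) * (r (u * t) : Aˣ) := by
            have h5 : ((c (u * t) : Aˣ) : A) * ((r (u * t) : Aˣ) : A) = (u : A) * (t : A) := by
              rw [← Units.val_mul, ← h3, Units.val_mul]
            have h6 : ((u⁻¹ : Aˣ) : A) * (u : A) = 1 := Units.inv_mul u
            calc (u : A) * (x * (t : A)) = u * x * 1 * t := by rw [mul_one, mul_assoc]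
              _ = u * x * (u⁻¹ : Aˣ) * (u * t) := by rw [← h6]; simp only [mul_assoc]
              _ = _ := by rw [← h5]; simp only [mul_assoc]
          rw [e]
          exact Submodule.mul_mem_mul (show _ ∈ R from R.mul_mem (hcR x hx)
            (Algebra.subset_adjoin ⟨_, h1, rfl⟩)) (Submodule.subset_span ⟨_, h2, rfl⟩)
        | zero => rw [mul_zero, mul_zero]; exact P.zero_mem
        | add y z _ _ hy hz => rw [mul_add, mul_add]; exact P.add_mem hy hz
        | smul q y _ hy => rw [mul_smul_comm, mul_smul_comm]; exact P.smul_mem q hy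
      | add x _ y _ hx hy => rw [mul_add]; exact P.add_mem hx hy
  intro F hF hFsub
  have hdec : ∀ f : A, ∃ W : Finset A, (W : Set A) ⊆ R ∧
      (f ∈ F → f ∈ Submodule.span k (W : Set A) * ST) := by
    intro f
    by_cases hf : f ∈ F
    · obtain ⟨W, W', hW, hW', hfW⟩ := Submodule.mem_span_mul_finite_of_mem_mul (hPle (hFsub hf))
      refine ⟨W, hW, fun _ => ?_⟩
      rw [← Submodule.span_mul_span] at hfW
      exact (mul_le_mul' le_rfl (Submodule.span_le.2 hW')) hfW
    · exact ⟨∅, by simp, fun h => absurd h hf⟩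
  choose W hWR hWF using hdec
  -- generating set of E
  let C : Set A := (⋃ f ∈ F, (W f : Set A)) ∪
    (⋃ t ∈ T, ⋃ t' ∈ T, {((c (t * t') : Aˣ) : A)}) ∪ {((c 1 : Aˣ) : A)}
  have hCfin : C.Finite := by
    refine Set.Finite.union (Set.Finite.union ?_ ?_) (Set.finite_singleton _)
    · exact hF.biUnion fun f _ => (W f).finite_toSet
    · exact T.finite_toSet.biUnion fun t _ => T.finite_toSet.biUnion fun t' _ =>
        Set.finite_singleton _
  have hCR : ∀ x ∈ C, x ∈ R := by
    rintro x ((hx | hx) | hx)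
    · obtain ⟨f, _, hfx⟩ := Set.mem_iUnion₂.1 hx
      exact hWR f hfx
    · obtain ⟨t, ht, hx⟩ := Set.mem_iUnion₂.1 hx
      obtain ⟨t', ht', hx⟩ := Set.mem_iUnion₂.1 hx
      rw [Set.mem_singleton_iff] at hx
      rw [hx]
      exact Algebra.subset_adjoin ⟨_, (hcr _ (G.mul_mem (hTG ht) (hTG ht'))).1, rfl⟩
    · rw [Set.mem_singleton_iff] at hx
      rw [hx]
      exact Algebra.subset_adjoin ⟨_, (hcr _ G.one_mem).1, rfl⟩
  let Q : Set A := C ∪ ⋃ t ∈ T, (fun x => (t : A) * x * (t⁻¹ : Aˣ)) '' C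
  have hQfin : Q.Finite := hCfin.union (T.finite_toSet.biUnion fun t _ => hCfin.image _)
  have hQR : ∀ x ∈ Q, x ∈ R := by
    rintro x (hx | hx)
    · exact hCR x hx
    · obtain ⟨t, ht, y, hy, rfl⟩ := Set.mem_iUnion₂.1 hx
      refine conj_mem (k := k) (Units.val '' (N : Set Aˣ)) t ?_ y (hCR y hy)
      rintro x ⟨n, hn, rfl⟩
      exact Algebra.subset_adjoin ⟨t * n * t⁻¹, hnorm t (hTG ht) n hn, by simp⟩
  let E := Algebra.adjoin k Q
  have hEfd : FiniteDimensional k E := hN Q hQfin hQR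
  have hCE : ∀ x ∈ C, x ∈ E := fun x hx => Algebra.subset_adjoin (Or.inl hx)
  have hunit : ∀ n : Aˣ, (n : A) ∈ E → ((n⁻¹ : Aˣ) : A) ∈ E := by
    intro n hn
    exact (Algebra.adjoin_le (by simpa using hn) : Algebra.adjoin k {(n : A)} ≤ E)
      (inv_mem halg n)
  have hcE : ∀ t ∈ T, ∀ t' ∈ T, ((c (t * t') : Aˣ) : A) ∈ E := by
    intro t ht t' ht'
    apply hCE
    refine Or.inl (Or.inr (Set.mem_iUnion₂.2 ⟨t, ht, Set.mem_iUnion₂.2 ⟨t', ht', rfl⟩⟩))
  have hc1 : ((c 1 : Aˣ) : A) ∈ E := hCE _ (Or.inr rfl)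
  have hEconj : ∀ t ∈ T, ∀ x ∈ E, (t : A) * x * (t⁻¹ : Aˣ) ∈ E := by
    intro t ht
    apply conj_mem
    rintro x (hx | hx)
    · exact Algebra.subset_adjoin (Or.inr (Set.mem_iUnion₂.2 ⟨t, ht, ⟨x, hx, rfl⟩⟩))
    · obtain ⟨t', ht', y, hy, rfl⟩ := Set.mem_iUnion₂.1 hx
      obtain ⟨h1, h2, h3⟩ := hcr (t * t') (G.mul_mem (hTG ht) (hTG ht'))
      have e : (t : A) * ((t' : A) * y * (t'⁻¹ : Aˣ)) * (t⁻¹ : Aˣ)
          = (c (t * t') : Aˣ) * ((r (t * t') : Aˣ) * y * ((r (t * t'))⁻¹ : Aˣ)) *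
            ((c (t * t'))⁻¹ : Aˣ) := by
        have h5 : (t : A) * (t' : A) = ((c (t * t') : Aˣ) : A) * ((r (t * t') : Aˣ) : A) := by
          rw [← Units.val_mul, ← Units.val_mul, ← h3]
        have h6 : ((t'⁻¹ : Aˣ) : A) * ((t⁻¹ : Aˣ) : A)
            = (((r (t * t'))⁻¹ : Aˣ) : A) * (((c (t * t'))⁻¹ : Aˣ) : A) := by
          rw [← Units.val_mul, ← Units.val_mul, ← mul_inv_rev, ← mul_inv_rev, ← h3]
        calc (t : A) * ((t' : A) * y * (t'⁻¹ : Aˣ)) * (t⁻¹ : Aˣ)
            = ((t : A) * (t' : A)) * y * (((t'⁻¹ : Aˣ) : A) * ((t⁻¹ : Aˣ) : A)) := by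
              simp only [mul_assoc]
          _ = _ := by rw [h5, h6]; simp only [mul_assoc]
      change (t : A) * ((t' : A) * y * (t'⁻¹ : Aˣ)) * (t⁻¹ : Aˣ) ∈ _
      rw [e]
      refine Subalgebra.mul_mem _ (Subalgebra.mul_mem _ (hcE t ht t' ht') ?_)
        (hunit _ (hcE t ht t' ht'))
      exact Algebra.subset_adjoin (Or.inr (Set.mem_iUnion₂.2 ⟨r (t * t'), h2, ⟨y, hy, rfl⟩⟩))
  let M : Submodule k A := Subalgebra.toSubmodule E * ST
  have hMfg : M.FG := (Module.Finite.iff_fg.1 hEfd : (Subalgebra.toSubmodule E).FG).mul hSTfg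
  have h1M : (1 : A) ∈ M := by
    obtain ⟨h1, h2, h3⟩ := hcr 1 G.one_mem
    have h4 : (1 : A) = ((c 1 : Aˣ) : A) * ((r 1 : Aˣ) : A) := by
      rw [← Units.val_mul, ← h3, Units.val_one]
    rw [h4]
    exact Submodule.mul_mem_mul (show ((c 1 : Aˣ) : A) ∈ E from hc1)
      (Submodule.subset_span ⟨_, h2, rfl⟩)
  have hfin : FiniteDimensional k (Algebra.adjoin k ((E : Set A) ∪ Units.val '' (T : Set Aˣ))) := by
    refine fd_of_stable _ M hMfg h1M ?_
    rintro s (hs | ⟨t, ht, rfl⟩) m hm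
    · have h2 : s * m ∈ Subalgebra.toSubmodule E * (Subalgebra.toSubmodule E * ST) :=
        Submodule.mul_mem_mul hs hm
      rw [← mul_assoc, sub_mul_self] at h2
      exact h2
    · induction hm using Submodule.mul_induction_on' with
      | mem_mul_mem x hx w hw =>
        induction hw using Submodule.span_induction with
        | mem w hw =>
          obtain ⟨t', ht', rfl⟩ := hw
          obtain ⟨h1, h2, h3⟩ := hcr (t * t') (G.mul_mem (hTG ht) (hTG ht'))
          have e : (t : A) * (x * (t' : A))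
              = (t * x * (t⁻¹ : Aˣ)) * (c (t * t') : Aˣ) * (r (t * t') : Aˣ) := by
            have h5 : ((c (t * t') : Aˣ) : A) * ((r (t * t') : Aˣ) : A) = (t : A) * (t' : A) := by
              rw [← Units.val_mul, ← h3, Units.val_mul]
            have h6 : ((t⁻¹ : Aˣ) : A) * (t : A) = 1 := Units.inv_mul t
            calc (t : A) * (x * (t' : A)) = t * x * 1 * t' := by rw [mul_one, mul_assoc]
              _ = t * x * (t⁻¹ : Aˣ) * (t * t') := by rw [← h6]; simp only [mul_assoc]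
              _ = _ := by rw [← h5]; simp only [mul_assoc]
          rw [e]
          exact Submodule.mul_mem_mul (show _ ∈ E from E.mul_mem (hEconj t ht x hx)
            (hcE t ht t' ht')) (Submodule.subset_span ⟨_, h2, rfl⟩)
        | zero => rw [mul_zero, mul_zero]; exact M.zero_mem
        | add y z _ _ hy hz => rw [mul_add, mul_add]; exact M.add_mem hy hz
        | smul q y _ hy => rw [mul_smul_comm, mul_smul_comm]; exact M.smul_mem q hy
      | add x _ y _ hx hy => rw [mul_add]; exact M.add_mem hx hy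
  have hFle : Algebra.adjoin k F ≤
      Algebra.adjoin k ((E : Set A) ∪ Units.val '' (T : Set Aˣ)) := by
    apply Algebra.adjoin_le
    intro f hf
    have h2 : Submodule.span k (W f : Set A) * ST ≤
        Subalgebra.toSubmodule (Algebra.adjoin k ((E : Set A) ∪ Units.val '' (T : Set Aˣ))) := by
      rw [Submodule.mul_le]
      intro x hx y hy
      refine Subalgebra.mul_mem _ ?_ ?_
      · refine (Submodule.span_le (p := Subalgebra.toSubmodule (Algebra.adjoin k
          ((E : Set A) ∪ Units.val '' (T : Set Aˣ))))).2 ?_ hx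
        intro w hw
        exact Algebra.subset_adjoin (Or.inl (hCE w (Or.inl (Or.inl
          (Set.mem_iUnion₂.2 ⟨f, hf, hw⟩)))))
      · refine (Submodule.span_le (p := Subalgebra.toSubmodule (Algebra.adjoin k
          ((E : Set A) ∪ Units.val '' (T : Set Aˣ))))).2 ?_ hy
        intro w hw
        exact Algebra.subset_adjoin (Or.inr hw)
    exact h2 (hWF f hf)
  have hFle2 : Subalgebra.toSubmodule (Algebra.adjoin k F) ≤ Subalgebra.toSubmodule
      (Algebra.adjoin k ((E : Set A) ∪ Units.val '' (T : Set Aˣ))) := hFle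
  exact Submodule.finiteDimensional_of_le hFle2

end Vale.Agent.P199
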