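import Mathlib

/-! P199 (Kurosh for division rings): finite-dimensionality criteria. -/

namespace Vale.Agent.P199

variable {k A : Type} [Field k] [Ring A] [Algebra k A]

theorem adjoin_le_of_stable (S : Set A) (M : Submodule k A) (h1 : (1 : A) ∈ M)
    (hS : ∀ s ∈ S, ∀ m ∈ M, s * m ∈ M) : Subalgebra.toSubmodule (Algebra.adjoin k S) ≤ M := by
  have h : ∀ x ∈ Algebra.adjoin k S, ∀ m ∈ M, x * m ∈ M := by
    intro x hx
    induction hx using Algebra.adjoin_induction with
    | mem s hs => exact hS s hs
    | algebraMap r =>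
      intro m hm
      rw [← Algebra.smul_def]
      exact M.smul_mem r hm
    | add x y _ _ hx hy =>
      intro m hm
      rw [add_mul]
      exact M.add_mem (hx m hm) (hy m hm)
    | mul x y _ _ hx hy =>
      intro m hm
      rw [mul_assoc]
      exact hx _ (hy m hm)
  intro x hx
  have := h x hx 1 h1
  rwa [mul_one] at this

theorem fd_of_stable (S : Set A) (M : Submodule k A) (hM : M.FG) (h1 : (1 : A) ∈ M)
    (hS : ∀ s ∈ S, ∀ m ∈ M, s * m ∈ M) : FiniteDimensional k (Algebra.adjoin k S) := by
  have : FiniteDimensional k M := Module.Finite.iff_fg.2 hM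
  exact Submodule.finiteDimensional_of_le (adjoin_le_of_stable S M h1 hS)

/-- the algebra generated by one algebraic element is finite-dimensional -/
theorem fg_adjoin_single {z : A} (hz : IsAlgebraic k z) :
    (Subalgebra.toSubmodule (Algebra.adjoin k {z})).FG :=
  (isAlgebraic_iff_isIntegral.1 hz).fg_adjoin_singleton

theorem sub_mul_self (B : Subalgebra k A) :
    Subalgebra.toSubmodule B * Subalgebra.toSubmodule B = Subalgebra.toSubmodule B := by
  apply le_antisymm
  · rw [Submodule.mul_le]
    intro x hx y hy
    exact B.mul_mem hx hy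
  · intro x hx
    have := Submodule.mul_mem_mul hx (show (1 : A) ∈ Subalgebra.toSubmodule B from B.one_mem)
    rwa [mul_one] at this

/-- two quadratic elements -/
theorem two_quadratic (halg : ∀ x : A, IsAlgebraic k x) (a b : A) (α β γ δ : k)
    (ha : a * a = α • a + β • (1 : A)) (hb : b * b = γ • b + δ • (1 : A)) :
    FiniteDimensional k (Algebra.adjoin k {a, b}) := by
  let z : A := a * b + b * a - γ • a - α • b
  have hz : z = a * b + b * a - γ • a - α • b := rfl
  have hza : z * a = a * z := by
    have e1 : z * a = a * b * a + b * (a * a) - γ • (a * a) - α • (b * a) := by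
      rw [hz]; simp only [sub_mul, add_mul, smul_mul_assoc, mul_assoc]
    have e2 : a * z = (a * a) * b + a * b * a - γ • (a * a) - α • (a * b) := by
      rw [hz]; simp only [mul_sub, mul_add, mul_smul_comm, mul_assoc]
    rw [e1, e2, ha]
    simp only [mul_add, add_mul, mul_smul_comm, smul_mul_assoc, mul_one, one_mul]
    abel
  have hzb : z * b = b * z := by
    have e1 : z * b = a * (b * b) + b * a * b - γ • (a * b) - α • (b * b) := by
      rw [hz]; simp only [sub_mul, add_mul, smul_mul_assoc, mul_assoc]
    have e2 : b * z = b * a * b + (b * b) * a - γ • (b * a) - α • (b * b) := by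
      rw [hz]; simp only [mul_sub, mul_add, mul_smul_comm, mul_assoc]
    rw [e1, e2, hb]
    simp only [mul_add, add_mul, mul_smul_comm, smul_mul_assoc, mul_one, one_mul]
    abel
  have hba : b * a = z - a * b + γ • a + α • b := by rw [hz]; abel
  let Z : Submodule k A := Subalgebra.toSubmodule (Algebra.adjoin k {z})
  have hZc : ∀ w : A, (z * w = w * z) → ∀ x ∈ Algebra.adjoin k {z}, x * w = w * x := by
    intro w hw x hx
    induction hx using Algebra.adjoin_induction with
    | mem s hs => rw [Set.mem_singleton_iff] at hs; rw [hs, hw]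
    | algebraMap r => exact Algebra.commutes r w
    | add x y _ _ hx hy => rw [add_mul, mul_add, hx, hy]
    | mul x y _ _ hx hy => rw [mul_assoc, hy, ← mul_assoc, hx, mul_assoc]
  let W : Submodule k A := Submodule.span k {1, a, b, a * b}
  let M : Submodule k A := Z * W
  have hWfg : W.FG := Submodule.fg_span (by simp)
  have hMfg : M.FG := (fg_adjoin_single (halg z)).mul hWfg
  have h1Z : (1 : A) ∈ Z := Subalgebra.one_mem _
  have hzZ : z ∈ Z := Algebra.subset_adjoin rfl
  have h1W : (1 : A) ∈ W := Submodule.subset_span (by simp)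
  have haW : a ∈ W := Submodule.subset_span (by simp)
  have hbW : b ∈ W := Submodule.subset_span (by simp)
  have habW : a * b ∈ W := Submodule.subset_span (by simp)
  have hWM : ∀ w ∈ W, w ∈ M := by
    intro w hw
    have := Submodule.mul_mem_mul h1Z hw
    rwa [one_mul] at this
  have hZM : ∀ x ∈ Z, ∀ m ∈ M, x * m ∈ M := by
    intro x hx m hm
    have h1 : x * m ∈ Z * (Z * W) := Submodule.mul_mem_mul hx hm
    rw [← mul_assoc] at h1
    have h2 : Z * Z = Z := sub_mul_self _
    rwa [h2] at h1
  have hstab : ∀ s : A, (z * s = s * z) → (∀ w ∈ ({1, a, b, a * b} : Set A), s * w ∈ M) →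
      ∀ m ∈ M, s * m ∈ M := by
    intro s hs hw m hm
    have hW' : ∀ w ∈ W, s * w ∈ M := by
      intro w hw'
      induction hw' using Submodule.span_induction with
      | mem x hx => exact hw x hx
      | zero => rw [mul_zero]; exact M.zero_mem
      | add x y _ _ hx hy => rw [mul_add]; exact M.add_mem hx hy
      | smul r x _ hx => rw [mul_smul_comm]; exact M.smul_mem r hx
    induction hm using Submodule.mul_induction_on' with
    | mem_mul_mem x hx w hw' =>
      rw [← mul_assoc, ← hZc s hs x hx, mul_assoc]
      exact hZM x hx _ (hW' w hw')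
    | add x _ y _ hx hy => rw [mul_add]; exact M.add_mem hx hy
  refine fd_of_stable {a, b} M hMfg (hWM 1 h1W) ?_
  intro s hs
  rcases hs with rfl | hs
  · apply hstab _ hza
    intro w hw
    rcases hw with rfl | rfl | rfl | hw
    · rw [mul_one]; exact hWM _ haW
    · rw [ha]; exact hWM _ (W.add_mem (W.smul_mem _ haW) (W.smul_mem _ h1W))
    · exact hWM _ habW
    · rw [Set.mem_singleton_iff] at hw
      rw [hw, ← mul_assoc, ha, add_mul, smul_mul_assoc, smul_mul_assoc, one_mul]
      exact hWM _ (W.add_mem (W.smul_mem _ habW) (W.smul_mem _ hbW))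
  · rw [Set.mem_singleton_iff] at hs
    rw [hs]
    apply hstab _ hzb
    intro w hw
    have hzM : z ∈ M := by
      have := hZM z hzZ 1 (hWM 1 h1W)
      rwa [mul_one] at this
    rcases hw with rfl | rfl | rfl | hw
    · rw [mul_one]; exact hWM _ hbW
    · rw [hba]
      exact M.add_mem (M.add_mem (M.sub_mem hzM (hWM _ habW)) (M.smul_mem _ (hWM _ haW)))
        (M.smul_mem _ (hWM _ hbW))
    · rw [hb]; exact hWM _ (W.add_mem (W.smul_mem _ hbW) (W.smul_mem _ h1W))
    · rw [Set.mem_singleton_iff] at hw
      have e : b * (a * b) = z * b - a * (b * b) + γ • (a * b) + α • (b * b) := by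
        rw [← mul_assoc, hba]
        simp only [add_mul, sub_mul, smul_mul_assoc, mul_assoc]
      rw [hw, e, hb, mul_add, mul_smul_comm, mul_smul_comm, mul_one]
      have t1 : z * b ∈ M := hZM z hzZ b (hWM b hbW)
      exact M.add_mem (M.add_mem (M.sub_mem t1 (M.add_mem (M.smul_mem _ (hWM _ habW))
        (M.smul_mem _ (hWM _ haW)))) (M.smul_mem _ (hWM _ habW)))
        (M.smul_mem _ (M.add_mem (M.smul_mem _ (hWM _ hbW)) (M.smul_mem _ (hWM _ h1W))))

/-- adding an element that normalizes a finite-dimensional subalgebra -/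
theorem add_normalizing (halg : ∀ x : A, IsAlgebraic k x) (B : Subalgebra k A)
    (hB : FiniteDimensional k B) (g : A) (hg : ∀ x ∈ B, ∃ y ∈ B, g * x = y * g) :
    FiniteDimensional k (Algebra.adjoin k ((B : Set A) ∪ {g})) := by
  let Z : Submodule k A := Subalgebra.toSubmodule (Algebra.adjoin k {g})
  let M : Submodule k A := Subalgebra.toSubmodule B * Z
  have hBfg : (Subalgebra.toSubmodule B).FG := Module.Finite.iff_fg.1 hB
  have hMfg : M.FG := hBfg.mul (fg_adjoin_single (halg g))
  have h1 : (1 : A) ∈ M := by
    have := Submodule.mul_mem_mul (show (1 : A) ∈ Subalgebra.toSubmodule B from B.one_mem)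
      (show (1 : A) ∈ Z from Subalgebra.one_mem _)
    rwa [one_mul] at this
  refine fd_of_stable _ M hMfg h1 ?_
  rintro s (hs | hs) m hm
  · have h2 : s * m ∈ Subalgebra.toSubmodule B * (Subalgebra.toSubmodule B * Z) :=
      Submodule.mul_mem_mul hs hm
    rw [← mul_assoc, sub_mul_self] at h2
    exact h2
  · rw [Set.mem_singleton_iff] at hs
    rw [hs]
    induction hm using Submodule.mul_induction_on' with
    | mem_mul_mem x hx w hw =>
      obtain ⟨y, hy, hxy⟩ := hg x hx
      rw [← mul_assoc, hxy, mul_assoc]
      refine Submodule.mul_mem_mul (show y ∈ Subalgebra.toSubmodule B from hy) ?_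
      exact Subalgebra.mul_mem _ (Algebra.subset_adjoin rfl) hw
    | add x _ y _ hx hy => rw [mul_add]; exact M.add_mem hx hy

end Vale.Agent.P199
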