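import Vale.Agent.Lib.P199.Fin

/-! P199 (Kurosh): algebras generated by solvable groups of units. -/

namespace Vale.Agent.P199

variable {k A : Type} [Field k] [Ring A] [Algebra k A]

/-- the `k`-algebra generated by a group of units is locally finite -/
def LocFin (k : Type) {A : Type} [Field k] [Ring A] [Algebra k A] (G : Subgroup Aˣ) : Prop :=
  ∀ F : Set A, F.Finite → F ⊆ (Algebra.adjoin k (Units.val '' (G : Set Aˣ)) : Set A) →
    FiniteDimensional k (Algebra.adjoin k F)

/-- the inverse of an algebraic unit is in the algebra generated by it -/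
theorem inv_mem (halg : ∀ x : A, IsAlgebraic k x) (g : Aˣ) :
    ((g⁻¹ : Aˣ) : A) ∈ Algebra.adjoin k {(g : A)} := by
  have hZ : FiniteDimensional k (Algebra.adjoin k {(g : A)}) :=
    Module.Finite.iff_fg.2 (fg_adjoin_single (halg g))
  let Z := Algebra.adjoin k {(g : A)}
  have hg : (g : A) ∈ Z := Algebra.subset_adjoin rfl
  let L : Z →ₗ[k] Z := LinearMap.mulLeft k (⟨g, hg⟩ : Z)
  have hinj : Function.Injective L := by
    intro x y hxy
    have h1 : (g : A) * x = g * y := congrArg Subtype.val hxy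
    apply Subtype.ext
    have h2 := congrArg (fun t => ((g⁻¹ : Aˣ) : A) * t) h1
    simpa [← mul_assoc] using h2
  have hsurj : Function.Surjective L := LinearMap.surjective_of_injective hinj
  obtain ⟨y, hy⟩ := hsurj 1
  have h3 : (g : A) * y = 1 := congrArg Subtype.val hy
  have h4 : ((g⁻¹ : Aˣ) : A) = y := by
    have h5 := congrArg (fun t => ((g⁻¹ : Aˣ) : A) * t) h3
    simpa [← mul_assoc] using h5.symm
  rw [h4]; exact y.2

/-- conjugation by a unit preserves an algebra generated by an invariant set -/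
theorem conj_mem (S : Set A) (g : Aˣ) (hS : ∀ x ∈ S, (g : A) * x * (g⁻¹ : Aˣ) ∈ Algebra.adjoin k S)
    (x : A) (hx : x ∈ Algebra.adjoin k S) : (g : A) * x * (g⁻¹ : Aˣ) ∈ Algebra.adjoin k S := by
  induction hx using Algebra.adjoin_induction with
  | mem s hs => exact hS s hs
  | algebraMap r =>
    rw [← Algebra.commutes r (g : A), mul_assoc, Units.mul_inv, mul_one]
    exact Subalgebra.algebraMap_mem _ r
  | add x y _ _ hx hy =>
    rw [mul_add, add_mul]; exact Subalgebra.add_mem _ hx hy
  | mul x y _ _ hx hy =>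
    have e : (g : A) * (x * y) * (g⁻¹ : Aˣ) = (g * x * (g⁻¹ : Aˣ)) * (g * y * (g⁻¹ : Aˣ)) := by
      have h1 : ((g⁻¹ : Aˣ) : A) * (g : A) = 1 := Units.inv_mul g
      calc (g : A) * (x * y) * (g⁻¹ : Aˣ) = g * x * 1 * y * (g⁻¹ : Aˣ) := by
            rw [mul_one]; simp only [mul_assoc]
        _ = _ := by rw [← h1]; simp only [mul_assoc]
    rw [e]; exact Subalgebra.mul_mem _ hx hy

/-- cyclic extensions -/
theorem locFin_cyclic (halg : ∀ x : A, IsAlgebraic k x) (N : Subgroup Aˣ) (hN : LocFin k N)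
    (g : Aˣ) (hg : ∀ n ∈ N, g * n * g⁻¹ ∈ N) (hg' : ∀ n ∈ N, g⁻¹ * n * g ∈ N) :
    LocFin k (N ⊔ Subgroup.zpowers g) := by
  let R := Algebra.adjoin k (Units.val '' (N : Set Aˣ))
  let Z := Algebra.adjoin k {(g : A)}
  have hgZ : (g : A) ∈ Z := Algebra.subset_adjoin rfl
  have hgiZ : ((g⁻¹ : Aˣ) : A) ∈ Z := inv_mem halg g
  have hcR : ∀ x ∈ R, (g : A) * x * (g⁻¹ : Aˣ) ∈ R := by
    apply conj_mem
    rintro x ⟨n, hn, rfl⟩
    exact Algebra.subset_adjoin ⟨g * n * g⁻¹, hg n hn, by simp⟩
  have hcR' : ∀ x ∈ R, ((g⁻¹ : Aˣ) : A) * x * (g : A) ∈ R := by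
    intro x hx
    have := conj_mem (k := k) (Units.val '' (N : Set Aˣ)) g⁻¹ (by
      rintro x ⟨n, hn, rfl⟩
      exact Algebra.subset_adjoin ⟨g⁻¹ * n * g, hg' n hn, by simp⟩) x hx
    simpa using this
  let P : Submodule k A := Subalgebra.toSubmodule R * Subalgebra.toSubmodule Z
  have hQ : ∀ s ∈ N ⊔ Subgroup.zpowers g,
      (∀ m ∈ P, (s : A) * m ∈ P) ∧ (∀ m ∈ P, ((s⁻¹ : Aˣ) : A) * m ∈ P) := by
    intro s hs
    have hNP : ∀ n ∈ N, ∀ m ∈ P, (n : A) * m ∈ P := by
      intro n hn m hm
      have hnR : (n : A) ∈ R := Algebra.subset_adjoin ⟨n, hn, rfl⟩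
      induction hm using Submodule.mul_induction_on' with
      | mem_mul_mem x hx w hw =>
        rw [← mul_assoc]
        exact Submodule.mul_mem_mul (show (n : A) * x ∈ Subalgebra.toSubmodule R from
          R.mul_mem hnR hx) hw
      | add x _ y _ hx hy => rw [mul_add]; exact P.add_mem hx hy
    have hgP : ∀ m ∈ P, (g : A) * m ∈ P := by
      intro m hm
      induction hm using Submodule.mul_induction_on' with
      | mem_mul_mem x hx w hw =>
        have e : (g : A) * (x * w) = (g * x * (g⁻¹ : Aˣ)) * (g * w) := by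
          have h1 : ((g⁻¹ : Aˣ) : A) * (g : A) = 1 := Units.inv_mul g
          calc (g : A) * (x * w) = g * x * 1 * w := by rw [mul_one, mul_assoc]
            _ = _ := by rw [← h1]; simp only [mul_assoc]
        rw [e]
        exact Submodule.mul_mem_mul (hcR x hx) (Z.mul_mem hgZ hw)
      | add x _ y _ hx hy => rw [mul_add]; exact P.add_mem hx hy
    have hgiP : ∀ m ∈ P, ((g⁻¹ : Aˣ) : A) * m ∈ P := by
      intro m hm
      induction hm using Submodule.mul_induction_on' with
      | mem_mul_mem x hx w hw =>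
        have e : ((g⁻¹ : Aˣ) : A) * (x * w) = ((g⁻¹ : Aˣ) * x * g) * ((g⁻¹ : Aˣ) * w) := by
          have h1 : (g : A) * ((g⁻¹ : Aˣ) : A) = 1 := Units.mul_inv g
          calc ((g⁻¹ : Aˣ) : A) * (x * w) = (g⁻¹ : Aˣ) * x * 1 * w := by rw [mul_one, mul_assoc]
            _ = _ := by rw [← h1]; simp only [mul_assoc]
        rw [e]
        exact Submodule.mul_mem_mul (hcR' x hx) (Z.mul_mem hgiZ hw)
      | add x _ y _ hx hy => rw [mul_add]; exact P.add_mem hx hy
    rw [Subgroup.zpowers_eq_closure, ← Subgroup.closure_eq N, ← Subgroup.closure_union] at hs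
    induction hs using Subgroup.closure_induction with
    | mem x hx =>
      rcases hx with hx | hx
      · exact ⟨hNP x hx, hNP x⁻¹ (N.inv_mem hx)⟩
      · rw [Set.mem_singleton_iff] at hx
        subst hx
        exact ⟨hgP, hgiP⟩
    | one => simp
    | mul x y _ _ hx hy =>
      refine ⟨fun m hm => ?_, fun m hm => ?_⟩
      · rw [Units.val_mul, mul_assoc]; exact hx.1 _ (hy.1 m hm)
      · rw [mul_inv_rev, Units.val_mul, mul_assoc]; exact hy.2 _ (hx.2 m hm)
    | inv x _ hx =>
      refine ⟨hx.2, ?_⟩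
      rw [inv_inv]; exact hx.1
  have h1P : (1 : A) ∈ P := by
    have := Submodule.mul_mem_mul (show (1 : A) ∈ Subalgebra.toSubmodule R from R.one_mem)
      (show (1 : A) ∈ Subalgebra.toSubmodule Z from Z.one_mem)
    rwa [one_mul] at this
  have hle : Subalgebra.toSubmodule (Algebra.adjoin k
      (Units.val '' ((N ⊔ Subgroup.zpowers g : Subgroup Aˣ) : Set Aˣ))) ≤ P := by
    apply adjoin_le_of_stable _ _ h1P
    rintro s ⟨u, hu, rfl⟩ m hm
    exact (hQ u hu).1 m hm
  intro F hF hFsub
  have hdec : ∀ f : A, ∃ T : Finset A, (T : Set A) ⊆ R ∧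
      (f ∈ F → f ∈ Submodule.span k (T : Set A) * Subalgebra.toSubmodule Z) := by
    classical
    intro f
    by_cases hf : f ∈ F
    · obtain ⟨T, T', hT, hT', hfT⟩ := Submodule.mem_span_mul_finite_of_mem_mul (hle (hFsub hf))
      refine ⟨T, hT, fun _ => ?_⟩
      rw [← Submodule.span_mul_span] at hfT
      exact (mul_le_mul' le_rfl (Submodule.span_le.2 hT')) hfT
    · exact ⟨∅, by simp, fun h => absurd h hf⟩
  choose T hTR hTF using hdec
  let TT : Set A := ⋃ f ∈ F, (T f : Set A)
  have hTTfin : TT.Finite := hF.biUnion fun f _ => (T f).finite_toSet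
  let Zs := Subalgebra.toSubmodule Z
  have hZfg : Zs.FG := fg_adjoin_single (halg g)
  let V : Submodule k A := Zs * Submodule.span k TT * Zs
  have hVfg : V.FG := (hZfg.mul (Submodule.fg_span hTTfin)).mul hZfg
  have hVfd : FiniteDimensional k V := Module.Finite.iff_fg.2 hVfg
  let V' : Submodule k A := V ⊓ Subalgebra.toSubmodule R
  have hV'fd : FiniteDimensional k V' := Submodule.finiteDimensional_of_le inf_le_left
  obtain ⟨B, hB⟩ : V'.FG := Module.Finite.iff_fg.1 hV'fd
  have h1Z : (1 : A) ∈ Zs := Z.one_mem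
  have hTV : ∀ t ∈ TT, t ∈ V' := by
    intro t ht
    refine ⟨?_, ?_⟩
    · have h2 := Submodule.mul_mem_mul (Submodule.mul_mem_mul h1Z
        (Submodule.subset_span (R := k) ht)) h1Z
      rwa [one_mul, mul_one] at h2
    · obtain ⟨f, hf, hft⟩ := Set.mem_iUnion₂.1 ht
      exact hTR f hft
  have hconjV : ∀ x ∈ V, (g : A) * x * (g⁻¹ : Aˣ) ∈ V := by
    intro x hx
    induction hx using Submodule.mul_induction_on' with
    | mem_mul_mem y hy w hw =>
      have hgy : (g : A) * y ∈ Zs * Submodule.span k TT := by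
        induction hy using Submodule.mul_induction_on' with
        | mem_mul_mem p hp q hq =>
          rw [← mul_assoc]
          exact Submodule.mul_mem_mul (show (g : A) * p ∈ Zs from Z.mul_mem hgZ hp) hq
        | add x _ y _ hx hy => rw [mul_add]; exact Submodule.add_mem _ hx hy
      have e : (g : A) * (y * w) * (g⁻¹ : Aˣ) = ((g : A) * y) * (w * (g⁻¹ : Aˣ)) := by
        simp only [mul_assoc]
      rw [e]
      exact Submodule.mul_mem_mul hgy (show w * ((g⁻¹ : Aˣ) : A) ∈ Zs from Z.mul_mem hw hgiZ)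
    | add x _ y _ hx hy => rw [mul_add, add_mul]; exact V.add_mem hx hy
  have hBE : ∀ x ∈ V', x ∈ Algebra.adjoin k (B : Set A) := by
    intro x hx
    rw [← hB] at hx
    exact (Submodule.span_le (p := Subalgebra.toSubmodule (Algebra.adjoin k (B : Set A)))).2
      Algebra.subset_adjoin hx
  have hBV : ∀ x ∈ (B : Set A), x ∈ V' := by
    intro x hx; rw [← hB]; exact Submodule.subset_span hx
  have hEfd : FiniteDimensional k (Algebra.adjoin k (B : Set A)) :=
    hN (B : Set A) B.finite_toSet (fun x hx => (hBV x hx).2)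
  have hEconj := conj_mem (k := k) (B : Set A) g
    (fun x hx => hBE _ ⟨hconjV x (hBV x hx).1, hcR x (hBV x hx).2⟩)
  have hfin := add_normalizing halg (Algebra.adjoin k (B : Set A)) hEfd (g : A) (by
    intro x hx
    refine ⟨(g : A) * x * (g⁻¹ : Aˣ), hEconj x hx, ?_⟩
    rw [mul_assoc, Units.inv_mul, mul_one])
  have hFle : Algebra.adjoin k F ≤ Algebra.adjoin k
      ((Algebra.adjoin k (B : Set A) : Set A) ∪ {(g : A)}) := by
    apply Algebra.adjoin_le
    intro f hf
    have h1 := hTF f hf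
    have h2 : Submodule.span k (T f : Set A) * Subalgebra.toSubmodule Z ≤
        Subalgebra.toSubmodule (Algebra.adjoin k
          ((Algebra.adjoin k (B : Set A) : Set A) ∪ {(g : A)})) := by
      rw [Submodule.mul_le]
      intro x hx y hy
      refine Subalgebra.mul_mem _ ?_ ?_
      · refine (Submodule.span_le (p := Subalgebra.toSubmodule (Algebra.adjoin k
          ((Algebra.adjoin k (B : Set A) : Set A) ∪ {(g : A)})))).2 ?_ hx
        intro t ht
        exact Algebra.subset_adjoin (Or.inl (hBE t (hTV t (Set.mem_iUnion₂.2 ⟨f, hf, ht⟩))))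
      · exact Algebra.adjoin_mono (Set.subset_union_right) hy
    exact h2 h1
  have hFle2 : Subalgebra.toSubmodule (Algebra.adjoin k F) ≤ Subalgebra.toSubmodule
      (Algebra.adjoin k ((Algebra.adjoin k (B : Set A) : Set A) ∪ {(g : A)})) := hFle
  exact Submodule.finiteDimensional_of_le hFle2

/-- elements of the algebra generated by a group use finitely many group elements -/
theorem mem_finite (G : Set Aˣ) (x : A) (hx : x ∈ Algebra.adjoin k (Units.val '' G)) :
    ∃ T : Finset Aˣ, (T : Set Aˣ) ⊆ G ∧ x ∈ Algebra.adjoin k (Units.val '' (T : Set Aˣ)) := by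
  classical
  induction hx using Algebra.adjoin_induction with
  | mem s hs =>
    obtain ⟨u, hu, rfl⟩ := hs
    exact ⟨{u}, by simpa using hu, Algebra.subset_adjoin ⟨u, by simp, rfl⟩⟩
  | algebraMap r => exact ⟨∅, by simp, Subalgebra.algebraMap_mem _ r⟩
  | add x y _ _ hx hy =>
    obtain ⟨T, h1, h2⟩ := hx
    obtain ⟨T', h1', h2'⟩ := hy
    refine ⟨T ∪ T', by rw [Finset.coe_union]; exact Set.union_subset h1 h1', ?_⟩
    exact Subalgebra.add_mem _
      (Algebra.adjoin_mono (Set.image_mono (by simp)) h2)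
      (Algebra.adjoin_mono (Set.image_mono (by simp)) h2')
  | mul x y _ _ hx hy =>
    obtain ⟨T, h1, h2⟩ := hx
    obtain ⟨T', h1', h2'⟩ := hy
    refine ⟨T ∪ T', by rw [Finset.coe_union]; exact Set.union_subset h1 h1', ?_⟩
    exact Subalgebra.mul_mem _
      (Algebra.adjoin_mono (Set.image_mono (by simp)) h2)
      (Algebra.adjoin_mono (Set.image_mono (by simp)) h2')

/-- abelian extensions -/
theorem locFin_abelian (halg : ∀ x : A, IsAlgebraic k x) (N G : Subgroup Aˣ) (hNG : N ≤ G)
    (hc : ∀ a ∈ G, ∀ b ∈ G, a * b * a⁻¹ * b⁻¹ ∈ N) (hN : LocFin k N) : LocFin k G := by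
  classical
  have step : ∀ T : Finset Aˣ, (T : Set Aˣ) ⊆ G →
      ∃ H : Subgroup Aˣ, N ≤ H ∧ H ≤ G ∧ (T : Set Aˣ) ⊆ H ∧ LocFin k H := by
    intro T
    induction T using Finset.induction_on with
    | empty => intro _; exact ⟨N, le_rfl, hNG, by simp, hN⟩
    | insert g T hgT ih =>
      intro hT
      rw [Finset.coe_insert] at hT
      obtain ⟨H, h1, h2, h3, h4⟩ := ih ((Set.subset_insert _ _).trans hT)
      have hgG : g ∈ G := hT (Set.mem_insert _ _)
      have hconj : ∀ a ∈ G, ∀ n ∈ H, a * n * a⁻¹ ∈ H := by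
        intro a ha n hn
        have h5 := H.mul_mem (h1 (hc a ha n (h2 hn))) hn
        rwa [inv_mul_cancel_right] at h5
      refine ⟨H ⊔ Subgroup.zpowers g, h1.trans le_sup_left,
        sup_le h2 (Subgroup.zpowers_le.2 hgG), ?_,
        locFin_cyclic halg H h4 g (hconj g hgG) (fun n hn => ?_)⟩
      · rw [Finset.coe_insert]
        intro x hx
        rcases hx with rfl | hx
        · exact (le_sup_right : Subgroup.zpowers x ≤ H ⊔ Subgroup.zpowers x)
            (Subgroup.mem_zpowers x)
        · exact (le_sup_left : H ≤ H ⊔ Subgroup.zpowers g) (h3 hx)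
      · have h6 := hconj g⁻¹ (G.inv_mem hgG) n hn
        rwa [inv_inv] at h6
  intro F hF hFsub
  have hch : ∀ f : A, ∃ T : Finset Aˣ, (T : Set Aˣ) ⊆ G ∧
      (f ∈ F → f ∈ Algebra.adjoin k (Units.val '' (T : Set Aˣ))) := by
    intro f
    by_cases hf : f ∈ F
    · obtain ⟨T, h1, h2⟩ := mem_finite (G : Set Aˣ) f (hFsub hf)
      exact ⟨T, h1, fun _ => h2⟩
    · exact ⟨∅, by simp, fun h => absurd h hf⟩
  choose T hT1 hT2 using hch
  obtain ⟨H, _, _, h3, h4⟩ := step (hF.toFinset.biUnion T) (by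
    intro x hx
    rw [Finset.mem_coe, Finset.mem_biUnion] at hx
    obtain ⟨f, _, hfx⟩ := hx
    exact hT1 f hfx)
  apply h4 F hF
  intro f hf
  refine Algebra.adjoin_mono (Set.image_mono ?_) (hT2 f hf)
  intro u hu
  exact h3 (Finset.mem_coe.2 (Finset.mem_biUnion.2 ⟨f, hF.mem_toFinset.2 hf, hu⟩))

/-- the trivial group -/
theorem locFin_bot : LocFin k (⊥ : Subgroup Aˣ) := by
  intro F _ hFsub
  have h0 : Algebra.adjoin k (Units.val '' ((⊥ : Subgroup Aˣ) : Set Aˣ)) ≤ ⊥ := by
    apply Algebra.adjoin_le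
    rintro x ⟨u, hu, rfl⟩
    rw [SetLike.mem_coe, Subgroup.mem_bot] at hu
    rw [hu, Units.val_one]
    exact Subalgebra.one_mem _
  have h1 : Algebra.adjoin k F ≤ ⊥ := Algebra.adjoin_le (fun x hx => h0 (hFsub hx))
  have h2 : Subalgebra.toSubmodule (Algebra.adjoin k F) ≤
      Subalgebra.toSubmodule (⊥ : Subalgebra k A) := h1
  have h3 : FiniteDimensional k (⊥ : Subalgebra k A) := inferInstance
  have h4 : FiniteDimensional k (Subalgebra.toSubmodule (⊥ : Subalgebra k A)) := h3
  exact Submodule.finiteDimensional_of_le h2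

/-- solvable groups of units generate locally finite algebras -/
theorem locFin_solvable (halg : ∀ x : A, IsAlgebraic k x) (G : Subgroup Aˣ) (hG : Group.IsSolvable G) :
    LocFin k G := by
  obtain ⟨n, hn⟩ := hG.solvable
  have h : ∀ m ≤ n, LocFin k ((derivedSeries G (n - m)).map G.subtype) := by
    intro m
    induction m with
    | zero =>
      intro _
      rw [Nat.sub_zero, hn, Subgroup.map_bot]
      exact locFin_bot
    | succ m ih =>
      intro hm
      have e : n - m = (n - (m + 1)) + 1 := by omega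
      refine locFin_abelian halg ((derivedSeries G (n - m)).map G.subtype) _ ?_ ?_
        (ih (by omega))
      · apply Subgroup.map_mono
        rw [e]
        exact derivedSeries_antitone G (Nat.le_succ _)
      · rintro _ ⟨a, ha, rfl⟩ _ ⟨b, hb, rfl⟩
        refine ⟨a * b * a⁻¹ * b⁻¹, ?_, by simp⟩
        rw [e, derivedSeries_succ]
        exact Subgroup.commutator_mem_commutator ha hb
  have h0 := h n le_rfl
  rw [Nat.sub_self, derivedSeries_zero] at h0
  have e : (⊤ : Subgroup G).map G.subtype = G := by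
    rw [← MonoidHom.range_eq_map, Subgroup.range_subtype]
  rwa [e] at h0

end Vale.Agent.P199
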